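import Mathlib
import Crest.Agent.Helper31.S0010.Deriv

/-!
# S0010, block AS3 (additivity): relation "equal up to a nonzero `p`-th power" and
`L^p`-linear independence of `1, a, b` for a `p`-independent pair.

Everything here is pure field theory over helper31's `pPow`, `pAdj`, `PIndep`.
-/

set_option autoImplicit false

namespace Crest.Agent.Helper69.S0010

open Crest.Agent.Helper31.S0010

variable {L : Type*} [Field L] (p : ℕ) [Fact p.Prime] [CharP L p]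

/-- `a = e * b` for a nonzero `p`-th power `e`. -/
def PRel (a b : L) : Prop := ∃ e ∈ pPow (L := L) p, e ≠ 0 ∧ a = e * b

variable {p}

theorem PRel.refl (a : L) : PRel p a a := ⟨1, one_mem _, one_ne_zero, (one_mul a).symm⟩

theorem PRel.symm {a b : L} (h : PRel p a b) : PRel p b a := by
  obtain ⟨e, he, he0, rfl⟩ := h
  exact ⟨e⁻¹, inv_mem he, inv_ne_zero he0, by field_simp⟩

theorem PRel.trans {a b c : L} (h : PRel p a b) (h' : PRel p b c) : PRel p a c := by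
  obtain ⟨e, he, he0, rfl⟩ := h
  obtain ⟨e', he', he0', rfl⟩ := h'
  exact ⟨e * e', mul_mem he he', mul_ne_zero he0 he0', by ring⟩

theorem PRel.mul {a b c d : L} (h : PRel p a b) (h' : PRel p c d) : PRel p (a * c) (b * d) := by
  obtain ⟨e, he, he0, rfl⟩ := h
  obtain ⟨e', he', he0', rfl⟩ := h'
  exact ⟨e * e', mul_mem he he', mul_ne_zero he0 he0', by ring⟩

theorem PRel.of_mul_left {e a : L} (he : e ∈ pPow (L := L) p) (he0 : e ≠ 0) : PRel p (e * a) a :=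
  ⟨e, he, he0, rfl⟩

theorem PRel.of_eq_mul {e a b : L} (he : e ∈ pPow (L := L) p) (he0 : e ≠ 0) (h : a = e * b) :
    PRel p a b := ⟨e, he, he0, h⟩

theorem PRel.ne_zero {a b : L} (h : PRel p a b) (hb : b ≠ 0) : a ≠ 0 := by
  obtain ⟨e, _, he0, rfl⟩ := h
  exact mul_ne_zero he0 hb

theorem PRel.ne_zero' {a b : L} (h : PRel p a b) (ha : a ≠ 0) : b ≠ 0 := h.symm.ne_zero ha

theorem PRel.mem_pPow {a b : L} (h : PRel p a b) (hb : b ∈ pPow (L := L) p) :
    a ∈ pPow (L := L) p := by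
  obtain ⟨e, he, _, rfl⟩ := h
  exact mul_mem he hb

theorem PRel.mem_pPow_iff {a b : L} (h : PRel p a b) :
    a ∈ pPow (L := L) p ↔ b ∈ pPow (L := L) p := ⟨h.symm.mem_pPow, h.mem_pPow⟩

theorem PRel.mem_of_mem {a b : L} (h : PRel p a b) {M : Subfield L}
    (hM : pPow (L := L) p ≤ M) (hb : b ∈ M) : a ∈ M := by
  obtain ⟨e, he, _, rfl⟩ := h
  exact mul_mem (hM he) hb

theorem PRel.mem_iff {a b : L} (h : PRel p a b) {M : Subfield L}
    (hM : pPow (L := L) p ≤ M) : a ∈ M ↔ b ∈ M := ⟨h.symm.mem_of_mem hM, h.mem_of_mem hM⟩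

theorem PRel.pAdj_le {a b : L} (h : PRel p a b) : pAdj p a ≤ pAdj p b :=
  adj_le (pPow_le_pAdj p b) (h.mem_of_mem (pPow_le_pAdj p b) (self_mem_pAdj p b))

theorem PRel.pAdj_eq {a b : L} (h : PRel p a b) : pAdj p a = pAdj p b :=
  le_antisymm h.pAdj_le h.symm.pAdj_le

/-- `L^p(a) ≤ L^p(x)` when `a ∈ L^p(x)`. -/
theorem pAdj_le_of_mem {a x : L} (h : a ∈ pAdj p x) : pAdj p a ≤ pAdj p x :=
  adj_le (pPow_le_pAdj p x) h

theorem pindep_of_rel {x y a b : L} (h : PIndep p x y) (ha : PRel p a x) (hb : PRel p b y) :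
    PIndep p a b := by
  refine ⟨fun h1 => h.1 (ha.symm.mem_pPow h1), fun h2 => h.2 ?_⟩
  rw [ha.pAdj_eq] at h2
  exact hb.symm.mem_of_mem (pPow_le_pAdj p x) h2

/-- `1, a` are `L^p`-independent when `a ∉ L^p`. -/
theorem indep2 {a e₀ e₁ : L} (ha : a ∉ pPow (L := L) p) (h0 : e₀ ∈ pPow (L := L) p)
    (h1 : e₁ ∈ pPow (L := L) p) (h : e₀ + e₁ * a = 0) : e₀ = 0 ∧ e₁ = 0 := by
  have h1' : e₁ = 0 := by
    by_contra hne
    apply ha
    have : a = -e₀ * e₁⁻¹ := by field_simp; linear_combination h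
    rw [this]
    exact mul_mem (neg_mem h0) (inv_mem h1)
  subst h1'
  simpa using h

/-- `1, a, b` are `L^p`-independent when `a, b` are `p`-independent. -/
theorem indep3 {a b e₀ e₁ e₂ : L} (hab : PIndep p a b) (h0 : e₀ ∈ pPow (L := L) p)
    (h1 : e₁ ∈ pPow (L := L) p) (h2 : e₂ ∈ pPow (L := L) p) (h : e₀ + e₁ * a + e₂ * b = 0) :
    e₀ = 0 ∧ e₁ = 0 ∧ e₂ = 0 := by
  have h2' : e₂ = 0 := by
    by_contra hne
    apply hab.2
    have : b = -(e₀ + e₁ * a) * e₂⁻¹ := by field_simp; linear_combination h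
    rw [this]
    exact mul_mem (neg_mem (add_mem (pPow_le_pAdj p a h0)
      (mul_mem (pPow_le_pAdj p a h1) (self_mem_pAdj p a)))) (inv_mem (pPow_le_pAdj p a h2))
  subst h2'
  have := indep2 hab.1 h0 h1 (by simpa using h)
  exact ⟨this.1, this.2, rfl⟩

/-- Comparison of coefficients w.r.t. `1, a`. -/
theorem cmp2 {a e₀ e₁ e₀' e₁' : L} (ha : a ∉ pPow (L := L) p) (h0 : e₀ ∈ pPow (L := L) p)
    (h1 : e₁ ∈ pPow (L := L) p) (h0' : e₀' ∈ pPow (L := L) p) (h1' : e₁' ∈ pPow (L := L) p)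
    (h : e₀ + e₁ * a = e₀' + e₁' * a) : e₀ = e₀' ∧ e₁ = e₁' := by
  have := indep2 ha (sub_mem h0 h0') (sub_mem h1 h1') (by linear_combination h)
  exact ⟨sub_eq_zero.1 this.1, sub_eq_zero.1 this.2⟩

/-- Comparison of coefficients w.r.t. `1, a, b`. -/
theorem cmp3 {a b e₀ e₁ e₂ e₀' e₁' e₂' : L} (hab : PIndep p a b) (h0 : e₀ ∈ pPow (L := L) p)
    (h1 : e₁ ∈ pPow (L := L) p) (h2 : e₂ ∈ pPow (L := L) p) (h0' : e₀' ∈ pPow (L := L) p)
    (h1' : e₁' ∈ pPow (L := L) p) (h2' : e₂' ∈ pPow (L := L) p)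
    (h : e₀ + e₁ * a + e₂ * b = e₀' + e₁' * a + e₂' * b) : e₀ = e₀' ∧ e₁ = e₁' ∧ e₂ = e₂' := by
  have := indep3 hab (sub_mem h0 h0') (sub_mem h1 h1') (sub_mem h2 h2') (by linear_combination h)
  exact ⟨sub_eq_zero.1 this.1, sub_eq_zero.1 this.2.1, sub_eq_zero.1 this.2.2⟩

/-- Uniqueness of the translation part: if `a ∉ L^p` and `a + e ~ a + e'` with `e, e' ∈ L^p`
then `e = e'`. -/
theorem rel_add_unique {a e e' : L} (ha : a ∉ pPow (L := L) p) (he : e ∈ pPow (L := L) p)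
    (he' : e' ∈ pPow (L := L) p) (h : PRel p (a + e) (a + e')) : e = e' := by
  obtain ⟨ε, hε, _, h⟩ := h
  have := cmp2 ha he (one_mem _) (mul_mem hε he') hε (by linear_combination h)
  rw [this.1, ← this.2, one_mul]

/-- A field is not the union of two proper subfields. -/
theorem exists_notMem_two (M₁ M₂ : Subfield L) (h₁ : ∃ y, y ∉ M₁) (h₂ : ∃ y, y ∉ M₂) :
    ∃ y, y ∉ M₁ ∧ y ∉ M₂ := by
  obtain ⟨y₁, hy₁⟩ := h₁
  obtain ⟨y₂, hy₂⟩ := h₂
  by_cases h12 : y₁ ∈ M₂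
  · by_cases h21 : y₂ ∈ M₁
    · refine ⟨y₁ + y₂, fun h => hy₁ ?_, fun h => hy₂ ?_⟩
      · simpa using sub_mem h h21
      · simpa using sub_mem h h12
    · exact ⟨y₂, h21, hy₂⟩
  · exact ⟨y₁, hy₁, h12⟩

theorem PRel.div {a b c d : L} (h : PRel p a b) (h' : PRel p c d) : PRel p (a / c) (b / d) := by
  obtain ⟨e, he, he0, rfl⟩ := h
  obtain ⟨e', he', he0', rfl⟩ := h'
  exact ⟨e / e', div_mem he he', div_ne_zero he0 he0', by rw [mul_div_mul_comm]⟩

theorem pindep_add_right {a b : L} (hab : PIndep p a b) : PIndep p a (a + b) :=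
  ⟨hab.1, fun h' => hab.2 (by simpa using sub_mem h' (self_mem_pAdj p a))⟩

theorem pindep_add_left {a b : L} (hab : PIndep p a b) : PIndep p (a + b) b := by
  have hba := PIndep.symm p hab
  refine PIndep.symm p ⟨hba.1, fun h' => hba.2 ?_⟩
  simpa using sub_mem h' (self_mem_pAdj p b)

theorem pindep_add_notMem {a b ε ε' : L} (hab : PIndep p a b) (hε : ε ∈ pPow (L := L) p)
    (hε' : ε' ∈ pPow (L := L) p) (hε'0 : ε' ≠ 0) : ε * a + ε' * b ∉ pPow (L := L) p := by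
  intro hmem
  have := indep3 hab (neg_mem hmem) hε hε' (by ring)
  exact hε'0 this.2.2

end Crest.Agent.Helper69.S0010
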