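import Mathlib
import Crest.Agent.Helper31.S0010.Deriv
import Crest.Agent.Helper69.S0010.Rel

/-!
# S0010, block AS3 (A2–A6): additivity of the lifted map

Pure field statement.  `t : K → L` is a "representative map" (of `Θ`), normalised so that the
line lemma holds with exponent `m = 1`.  We construct `α : K → L`, additive, `α 1 = 1`, with
`t u ~ α u` (equality up to a nonzero `p`-th power) for all `u ≠ 0`.
-/

set_option autoImplicit false

namespace Crest.Agent.Helper69.S0010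

open Crest.Agent.Helper31.S0010

variable {K L : Type*} [Field K] [Field L]

/-- Hypotheses of the additivity block: a representative map `t` with the normalised
(`m = 1`) line property. -/
structure NLine (p : ℕ) [Fact p.Prime] [CharP K p] [CharP L p] (t : K → L) : Prop where
  ne_zero : ∀ u, u ≠ 0 → t u ≠ 0
  mul : ∀ u v, u ≠ 0 → v ≠ 0 → PRel p (t (u * v)) (t u * t v)
  pow_iff : ∀ u, u ≠ 0 → (t u ∈ pPow (L := L) p ↔ u ∈ pPow (L := K) p)
  surj : ∀ y : L, y ≠ 0 → ∃ g, g ≠ 0 ∧ PRel p (t g) y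
  pair : ∃ x y : L, PIndep p x y
  line : ∀ f g, f ≠ 0 → g ≠ 0 → PIndep p (t f) (t g) →
    ∃ (P Q : L) (lam : K → L), (∀ c ∈ pPow (L := K) p, lam c ∈ pPow (L := L) p) ∧
      (∀ c ∈ pPow (L := K) p, PRel p (t (f + c)) (P + lam c) ∧ PRel p (t (g - c)) (Q - lam c)) ∧
      PRel p (t (f + g)) (P + Q)

variable {p : ℕ} [Fact p.Prime] [CharP K p] [CharP L p] {t : K → L}

namespace NLine

local notation "FK" => pPow (L := K) p
local notation "FL" => pPow (L := L) p

omit [CharP K p] [CharP L p] in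
theorem ne_zero_of_notMem {M : Type*} [Field M] [CharP M p] {f : M} (hf : f ∉ pPow (L := M) p) :
    f ≠ 0 := fun h => hf (h ▸ zero_mem _)

theorem t_div (h : NLine p t) {u v : K} (hu : u ≠ 0) (hv : v ≠ 0) :
    PRel p (t (u / v)) (t u / t v) := by
  have h1 := h.mul (u / v) v (div_ne_zero hu hv) hv
  rw [div_mul_cancel₀ u hv] at h1
  obtain ⟨e, he, he0, h1⟩ := h1
  refine ⟨e⁻¹, inv_mem he, inv_ne_zero he0, ?_⟩
  have := h.ne_zero v hv
  rw [h1]; field_simp

theorem t_mul_mem (h : NLine p t) {c u : K} (hc : c ∈ FK) (hc0 : c ≠ 0) (hu : u ≠ 0) :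
    PRel p (t (c * u)) (t u) :=
  (h.mul c u hc0 hu).trans (PRel.of_mul_left ((h.pow_iff c hc0).2 hc) (h.ne_zero c hc0))

theorem div_mem_of_rel (h : NLine p t) {u v : K} (hu : u ≠ 0) (hv : v ≠ 0)
    (hr : PRel p (t u) (t v)) : u / v ∈ FK := by
  rw [← h.pow_iff _ (div_ne_zero hu hv)]
  refine (h.t_div hu hv).mem_pPow ?_
  obtain ⟨e, he, _, hr⟩ := hr
  rw [hr, mul_div_assoc, div_self (h.ne_zero v hv), mul_one]; exact he

theorem t_notMem (h : NLine p t) {f : K} (hf : f ∉ FK) : t f ∉ FL :=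
  fun h1 => hf ((h.pow_iff f (ne_zero_of_notMem hf)).1 h1)

theorem notMem_of_t_notMem (h : NLine p t) {f : K} (hf0 : f ≠ 0) (hf : t f ∉ FL) : f ∉ FK :=
  fun h1 => hf ((h.pow_iff f hf0).2 h1)

/-- Every `x ∉ L^p` has a partner. -/
theorem partner (h : NLine p t) {x : L} (_hx : x ∉ FL) : ∃ y, y ∉ pAdj p x := by
  obtain ⟨x₀, y₀, h0⟩ := h.pair
  by_contra hcon
  simp only [not_exists, not_not] at hcon
  have hx₀ : x ∈ pAdj p x₀ := exchange p (pPow p) (pow_mem_pPow p) (hcon x₀) h0.1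
  exact h0.2 (pAdj_le_of_mem hx₀ (hcon y₀))

theorem exists_partner (h : NLine p t) {f : K} (hf : f ∉ FK) :
    ∃ g, g ≠ 0 ∧ PIndep p (t f) (t g) := by
  obtain ⟨y, hy⟩ := h.partner (h.t_notMem hf)
  have hy0 : y ≠ 0 := fun h0 => hy (h0 ▸ zero_mem _)
  obtain ⟨g, hg0, hg⟩ := h.surj y hy0
  exact ⟨g, hg0, h.t_notMem hf, fun hh => hy ((hg.mem_iff (pPow_le_pAdj p _)).1 hh)⟩

theorem exists_partner₂ (h : NLine p t) {f f' : K} (hf : f ∉ FK) (hf' : f' ∉ FK) :
    ∃ g, g ≠ 0 ∧ PIndep p (t f) (t g) ∧ PIndep p (t f') (t g) := by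
  obtain ⟨y, hy, hy'⟩ := exists_notMem_two (pAdj p (t f)) (pAdj p (t f'))
    (h.partner (h.t_notMem hf)) (h.partner (h.t_notMem hf'))
  have hy0 : y ≠ 0 := fun h0 => hy (h0 ▸ zero_mem _)
  obtain ⟨g, hg0, hg⟩ := h.surj y hy0
  exact ⟨g, hg0, ⟨h.t_notMem hf, fun hh => hy ((hg.mem_iff (pPow_le_pAdj p _)).1 hh)⟩,
    ⟨h.t_notMem hf', fun hh => hy' ((hg.mem_iff (pPow_le_pAdj p _)).1 hh)⟩⟩

theorem notMem_of_indep_right (h : NLine p t) {f g : K} (hg0 : g ≠ 0)
    (hfg : PIndep p (t f) (t g)) : g ∉ FK :=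
  h.notMem_of_t_notMem hg0 (fun h1 => hfg.2 (pPow_le_pAdj p _ h1))

theorem notMem_of_indep_left (h : NLine p t) {f g : K} (hf0 : f ≠ 0)
    (hfg : PIndep p (t f) (t g)) : f ∉ FK :=
  h.notMem_of_t_notMem hf0 hfg.1


/-- Uniqueness of the normalised lift: `z ∉ L^p`, `z' ~ z`, `z' + 1 ~ z + 1` force `z' = z`. -/
theorem lift_unique {z z' : L} (hz : z ∉ FL) (h1 : PRel p z' z) (h2 : PRel p (z' + 1) (z + 1)) :
    z' = z := by
  obtain ⟨e, he, _, h1⟩ := h1
  obtain ⟨e', he', _, h2⟩ := h2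
  have := cmp2 hz (one_mem _) he he' he' (by rw [h1] at h2; linear_combination h2)
  rw [h1, this.2, ← this.1, one_mul]

/-- A2: existence of the normalised lift `z = α f` and of the translation parts. -/
theorem exists_lift (h : NLine p t) {f : K} (hf : f ∉ FK) :
    ∃ z : L, PRel p (t f) z ∧ PRel p (t (f + 1)) (z + 1) ∧
      ∀ c ∈ FK, ∃ e ∈ FL, PRel p (t (f + c)) (z + e) := by
  have hf0 : f ≠ 0 := ne_zero_of_notMem hf
  obtain ⟨g, hg0, hfg⟩ := h.exists_partner hf
  obtain ⟨P, Q, lam, hlam, hrel, -⟩ := h.line f g hf0 hg0 hfg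
  have h0 := (hrel 0 (zero_mem _)).1
  have h1 := (hrel 1 (one_mem _)).1
  rw [add_zero] at h0
  have hμ : lam 1 - lam 0 ≠ 0 := by
    intro hμ
    have hlam1 : lam 1 = lam 0 := sub_eq_zero.1 hμ
    rw [hlam1] at h1
    have hf1 : f + 1 ≠ 0 := fun h' => hf (by
      have : f = -1 := by linear_combination h'
      rw [this]; exact neg_mem (one_mem _))
    have := h.div_mem_of_rel hf1 hf0 (h1.trans h0.symm)
    apply hf
    have h2 : f = ((f + 1) / f - 1)⁻¹ := by field_simp; ring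
    rw [h2]
    exact inv_mem (sub_mem this (one_mem _))
  have hμmem : lam 1 - lam 0 ∈ FL := sub_mem (hlam 1 (one_mem _)) (hlam 0 (zero_mem _))
  refine ⟨(lam 1 - lam 0)⁻¹ * (P + lam 0), ?_, ?_, ?_⟩
  · exact h0.trans (PRel.of_eq_mul hμmem hμ (by field_simp))
  · exact h1.trans (PRel.of_eq_mul hμmem hμ (by field_simp; ring))
  · intro c hc
    refine ⟨(lam 1 - lam 0)⁻¹ * (lam c - lam 0),
      mul_mem (inv_mem hμmem) (sub_mem (hlam c hc) (hlam 0 (zero_mem _))), ?_⟩
    exact (hrel c hc).1.trans (PRel.of_eq_mul hμmem hμ (by field_simp; ring))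

/-- A2 packaged: the maps `α` and `lam`. -/
theorem exists_alpha_lam (h : NLine p t) :
    ∃ (α : K → L) (lam : K → K → L),
      (∀ f, f ∉ FK → PRel p (t f) (α f) ∧ PRel p (t (f + 1)) (α f + 1)) ∧
      (∀ f, f ∉ FK → ∀ c ∈ FK, lam f c ∈ FL ∧ PRel p (t (f + c)) (α f + lam f c)) := by
  classical
  have key : ∀ f : K, ∃ z : L, f ∉ FK → (PRel p (t f) z ∧ PRel p (t (f + 1)) (z + 1) ∧
      ∀ c : K, ∃ e : L, c ∈ FK → (e ∈ FL ∧ PRel p (t (f + c)) (z + e))) := by
    intro f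
    by_cases hf : f ∈ FK
    · exact ⟨0, fun h' => absurd hf h'⟩
    · obtain ⟨z, h1, h2, h3⟩ := h.exists_lift hf
      refine ⟨z, fun _ => ⟨h1, h2, fun c => ?_⟩⟩
      by_cases hc : c ∈ FK
      · obtain ⟨e, he, hr⟩ := h3 c hc
        exact ⟨e, fun _ => ⟨he, hr⟩⟩
      · exact ⟨0, fun h' => absurd h' hc⟩
  choose α hα using key
  have key2 : ∀ f : K, ∃ lam : K → L, f ∉ FK →
      ∀ c ∈ FK, lam c ∈ FL ∧ PRel p (t (f + c)) (α f + lam c) := by
    intro f
    by_cases hf : f ∈ FK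
    · exact ⟨fun _ => 0, fun h' => absurd hf h'⟩
    · choose lam hlam using (hα f hf).2.2
      exact ⟨lam, fun _ c hc => hlam c hc⟩
  choose lam hlam using key2
  exact ⟨α, lam, fun f hf => ⟨(hα f hf).1, (hα f hf).2.1⟩, fun f hf c hc => hlam f hf c hc⟩


section Core

variable (h : NLine p t) (α : K → L) (lam : K → K → L)
  (hα : ∀ f : K, f ∉ pPow (L := K) p → PRel p (t f) (α f) ∧ PRel p (t (f + 1)) (α f + 1))
  (hlam : ∀ f : K, f ∉ pPow (L := K) p → ∀ c : K, c ∈ pPow (L := K) p →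
    lam f c ∈ pPow (L := L) p ∧ PRel p (t (f + c)) (α f + lam f c))

include h hα in
theorem alpha_notMem {f : K} (hf : f ∉ FK) : α f ∉ FL :=
  fun hm => h.t_notMem hf ((hα f hf).1.mem_pPow hm)

include h hα in
theorem alpha_indep {f g : K} (hf0 : f ≠ 0) (hg0 : g ≠ 0) (hfg : PIndep p (t f) (t g)) :
    PIndep p (α f) (α g) :=
  pindep_of_rel hfg (hα f (h.notMem_of_indep_left hf0 hfg)).1.symm
    (hα g (h.notMem_of_indep_right hg0 hfg)).1.symm

include h hα hlam in
theorem lam_zero {f : K} (hf : f ∉ FK) : lam f 0 = 0 := by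
  have h1 := (hlam f hf 0 (zero_mem _))
  rw [add_zero] at h1
  have h2 : PRel p (α f + lam f 0) (α f + 0) := by
    rw [add_zero]; exact h1.2.symm.trans (hα f hf).1
  exact rel_add_unique (alpha_notMem h α hα hf) h1.1 (zero_mem _) h2

include h hα hlam in
theorem lam_one {f : K} (hf : f ∉ FK) : lam f 1 = 1 := by
  have h1 := (hlam f hf 1 (one_mem _))
  exact rel_add_unique (alpha_notMem h α hα hf) h1.1 (one_mem _) (h1.2.symm.trans (hα f hf).2)

include h hα in
/-- A3 (coefficients `1, 1`): the image of `u + v` lies on the line through the images. -/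
theorem line_sum {u v : K} {A B : L} (hu : u ≠ 0) (hv : v ≠ 0) (hq : v / u ∉ FK)
    (hA : PRel p (t u) A) (hB : PRel p (t v) B) :
    ∃ ε ∈ FL, ε ≠ 0 ∧ PRel p (t (u + v)) (A + ε * B) := by
  have hq1 : v / u + 1 ∉ FK := fun h' => hq (by simpa using sub_mem h' (one_mem _))
  have hq10 : v / u + 1 ≠ 0 := ne_zero_of_notMem hq1
  have hA0 : A ≠ 0 := hA.ne_zero' (h.ne_zero u hu)
  have e : u + v = u * (v / u + 1) := by field_simp; ring
  have r1 : PRel p (t (u + v)) (A * (α (v / u) + 1)) := by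
    rw [e]; exact (h.mul u _ hu hq10).trans (hA.mul (hα _ hq).2)
  obtain ⟨ε, hε, hε0, hr⟩ := ((hα _ hq).1.symm.trans (h.t_div hv hu)).trans (hB.div hA)
  refine ⟨ε, hε, hε0, ?_⟩
  have e2 : A * (α (v / u) + 1) = A + ε * B := by rw [hr]; field_simp; ring
  rwa [e2] at r1

include h hα hlam in
/-- Step 0 of A4: the line lemma for `(f, g)` in terms of `α`, `lam f`. -/
theorem gen_core {f g : K} (hf0 : f ≠ 0) (hg0 : g ≠ 0) (hfg : PIndep p (t f) (t g)) :
    ∃ ε ε' : L, ε ∈ FL ∧ ε ≠ 0 ∧ ε' ∈ FL ∧ ε' ≠ 0 ∧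
      (∀ c ∈ FK, PRel p (t (g - c)) (ε' * α g - ε * lam f c)) ∧
      PRel p (t (f + g)) (ε * α f + ε' * α g) := by
  have hf : f ∉ FK := h.notMem_of_indep_left hf0 hfg
  have hg : g ∉ FK := h.notMem_of_indep_right hg0 hfg
  have ha := alpha_notMem h α hα hf
  obtain ⟨P, Q, lam', hlam', hrel, hsum⟩ := h.line f g hf0 hg0 hfg
  have h0 := (hrel 0 (zero_mem _)).1
  rw [add_zero] at h0
  have g0 := (hrel 0 (zero_mem _)).2
  rw [sub_zero] at g0
  obtain ⟨ε, hε, hε0, hP⟩ := h0.symm.trans (hα f hf).1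
  obtain ⟨ε', hε', hε'0, hQ⟩ := g0.symm.trans (hα g hg).1
  have hlam'c : ∀ c ∈ FK, lam' c = lam' 0 + ε * lam f c := by
    intro c hc'
    have r1 : PRel p (α f + lam f c) (P + lam' c) :=
      (hlam f hf c hc').2.symm.trans (hrel c hc').1
    have e1 : ε * (α f + ε⁻¹ * (lam' c - lam' 0)) = ε * α f + (lam' c - lam' 0) := by
      rw [mul_add, ← mul_assoc, mul_inv_cancel₀ hε0, one_mul]
    have r2 : PRel p (P + lam' c) (α f + ε⁻¹ * (lam' c - lam' 0)) :=
      PRel.of_eq_mul hε hε0 (by rw [e1]; linear_combination hP)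
    have := rel_add_unique ha (hlam f hf c hc').1
      (mul_mem (inv_mem hε) (sub_mem (hlam' c hc') (hlam' 0 (zero_mem _)))) (r1.trans r2)
    rw [this, ← mul_assoc, mul_inv_cancel₀ hε0, one_mul]; ring
  refine ⟨ε, ε', hε, hε0, hε', hε'0, fun c hc' => ?_, ?_⟩
  · have := (hrel c hc').2
    have e : Q - lam' c = ε' * α g - ε * lam f c := by
      rw [hlam'c c hc']; linear_combination hQ
    rwa [e] at this
  · have e : P + Q = ε * α f + ε' * α g := by linear_combination hP + hQ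
    rwa [e] at hsum

include h hα in
/-- Step 1 of A4. -/
theorem gen_one_add {f g : K} (hf0 : f ≠ 0) (hg0 : g ≠ 0) (hfg : PIndep p (t f) (t g)) :
    PRel p (t (1 + f + g)) (1 + α f + α g) := by
  have hf : f ∉ FK := h.notMem_of_indep_left hf0 hfg
  have hg : g ∉ FK := h.notMem_of_indep_right hg0 hfg
  have hab : PIndep p (α f) (α g) := alpha_indep h α hα hf0 hg0 hfg
  have hf1 : 1 + f ≠ 0 :=
    ne_zero_of_notMem (p := p) (fun h' => hf (by simpa using sub_mem h' (one_mem _)))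
  have hg1 : 1 + g ≠ 0 :=
    ne_zero_of_notMem (p := p) (fun h' => hg (by simpa using sub_mem h' (one_mem _)))
  have r1f : PRel p (t (1 + f)) (α f + 1) := by rw [add_comm 1 f]; exact (hα f hf).2
  have r1g : PRel p (t (1 + g)) (α g + 1) := by rw [add_comm 1 g]; exact (hα g hg).2
  have hq1 : (1 + f) / g ∉ FK := by
    intro hq
    have hr : PRel p (t (1 + f)) (t g) := by
      have := h.t_mul_mem hq (div_ne_zero hf1 hg0) hg0
      rwa [div_mul_cancel₀ _ hg0] at this
    obtain ⟨e, he, he0, hr⟩ := r1f.symm.trans (hr.trans (hα g hg).1)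
    have := cmp3 hab (one_mem _) (one_mem _) (zero_mem _) (zero_mem _) (zero_mem _) he
      (by linear_combination hr)
    exact one_ne_zero this.1
  have hq2 : (1 + g) / f ∉ FK := by
    intro hq
    have hr : PRel p (t (1 + g)) (t f) := by
      have := h.t_mul_mem hq (div_ne_zero hg1 hf0) hf0
      rwa [div_mul_cancel₀ _ hf0] at this
    obtain ⟨e, he, he0, hr⟩ := r1g.symm.trans (hr.trans (hα f hf).1)
    have := cmp3 hab (one_mem _) (zero_mem _) (one_mem _) (zero_mem _) he (zero_mem _)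
      (by linear_combination hr)
    exact one_ne_zero this.1
  obtain ⟨ε₁, hε₁, hε₁0, s1⟩ := line_sum h α hα hg0 hf1 hq1 (hα g hg).1 r1f
  obtain ⟨ε₂, hε₂, hε₂0, s2⟩ := line_sum h α hα hf0 hg1 hq2 (hα f hf).1 r1g
  have e1 : g + (1 + f) = 1 + f + g := by ring
  have e2 : f + (1 + g) = 1 + f + g := by ring
  rw [e1] at s1
  rw [e2] at s2
  obtain ⟨ε₃, hε₃, hε₃0, hr⟩ := s1.symm.trans s2
  have := cmp3 hab hε₁ hε₁ (one_mem _) (mul_mem hε₃ hε₂) hε₃ (mul_mem hε₃ hε₂)
    (by linear_combination hr)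
  have hε₁1 : ε₁ = 1 := by rw [this.1, ← this.2.2]
  rw [hε₁1, one_mul] at s1
  have e3 : α g + (α f + 1) = 1 + α f + α g := by ring
  rwa [e3] at s1

include h hα hlam in
/-- A4: additivity on generic pairs, and the relation between `lam g` and `lam f`. -/
theorem gen_add {f g : K} (hf0 : f ≠ 0) (hg0 : g ≠ 0) (hfg : PIndep p (t f) (t g)) :
    f + g ∉ FK ∧ α (f + g) = α f + α g ∧ ∀ c ∈ FK, lam g (-c) = -lam f c := by
  have hf : f ∉ FK := h.notMem_of_indep_left hf0 hfg
  have hg : g ∉ FK := h.notMem_of_indep_right hg0 hfg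
  have hab : PIndep p (α f) (α g) := alpha_indep h α hα hf0 hg0 hfg
  obtain ⟨ε, ε', hε, hε0, hε', hε'0, hgc, hsum⟩ := gen_core h α lam hα hlam hf0 hg0 hfg
  have hfg0 : f + g ≠ 0 := by
    intro h0
    have hgf : g = (-1) * f := by linear_combination h0
    have : PRel p (t g) (t f) := by
      rw [hgf]; exact h.t_mul_mem (neg_mem (one_mem _)) (neg_ne_zero.2 one_ne_zero) hf0
    exact hfg.2 (this.mem_of_mem (pPow_le_pAdj p _) (self_mem_pAdj p _))
  have hfgF : f + g ∉ FK :=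
    h.notMem_of_t_notMem hfg0 (fun hm => pindep_add_notMem hab hε hε' hε'0 (hsum.symm.mem_pPow hm))
  have hone := gen_one_add h α hα hf0 hg0 hfg
  have hs := hα (f + g) hfgF
  obtain ⟨e₅, he₅, he₅0, h5⟩ := hs.1.symm.trans hsum
  have hs2 := hs.2
  have e1 : f + g + 1 = 1 + f + g := by ring
  rw [e1] at hs2
  obtain ⟨e₄, he₄, he₄0, h4⟩ := hs2.symm.trans hone
  have hc := cmp3 hab (one_mem _) (mul_mem he₅ hε) (mul_mem he₅ hε') he₄ he₄ he₄
    (by rw [h5] at h4; linear_combination h4)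
  have hεε' : ε = ε' := by
    have : e₅ * ε = e₅ * ε' := by rw [hc.2.1, hc.2.2]
    exact mul_left_cancel₀ he₅0 this
  refine ⟨hfgF, ?_, fun c hc' => ?_⟩
  · rw [h5, mul_add, ← mul_assoc, ← mul_assoc, hc.2.1, hc.2.2, ← hc.1, one_mul, one_mul]
  · have r := hgc c hc'
    rw [← hεε'] at r
    have r2 : PRel p (ε * α g - ε * lam f c) (α g + -lam f c) :=
      PRel.of_eq_mul hε hε0 (by ring)
    have r3 := hlam g hg (-c) (neg_mem hc')
    rw [← sub_eq_add_neg] at r3
    exact rel_add_unique (alpha_notMem h α hα hg) r3.1 (neg_mem (hlam f hf c hc').1)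
      (r3.2.symm.trans (r.trans r2))

include h hα hlam in
/-- A5: `lam (f + g) = lam f` for generic pairs. -/
theorem lam_add {f g : K} (hf0 : f ≠ 0) (hg0 : g ≠ 0) (hfg : PIndep p (t f) (t g))
    {c : K} (hc : c ∈ pPow (L := K) p) : lam (f + g) c = lam f c := by
  have hg : g ∉ pPow (L := K) p := h.notMem_of_indep_right hg0 hfg
  have hab : PIndep p (α f) (α g) := alpha_indep h α hα hf0 hg0 hfg
  obtain ⟨hfgF, hadd, hneg⟩ := gen_add h α lam hα hlam hf0 hg0 hfg
  have r : PRel p (t (f + g)) (α f + α g) := by rw [← hadd]; exact (hα _ hfgF).1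
  have hgen : PIndep p (t (f + g)) (t g) := pindep_of_rel (pindep_add_left hab) r (hα g hg).1
  obtain ⟨-, -, hneg2⟩ := gen_add h α lam hα hlam (ne_zero_of_notMem hfgF) hg0 hgen
  exact neg_injective ((hneg2 c hc).symm.trans (hneg c hc))

include h hα hlam in
/-- A5: `lam f` is odd. -/
theorem lam_odd {f : K} (hf : f ∉ pPow (L := K) p) {c : K} (hc : c ∈ pPow (L := K) p) :
    lam f (-c) = -lam f c := by
  have hf0 : f ≠ 0 := ne_zero_of_notMem hf
  obtain ⟨g, hg0, hfg⟩ := h.exists_partner hf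
  have hab : PIndep p (α f) (α g) := alpha_indep h α hα hf0 hg0 hfg
  obtain ⟨hfgF, hadd, -⟩ := gen_add h α lam hα hlam hf0 hg0 hfg
  have r : PRel p (t (f + g)) (α f + α g) := by rw [← hadd]; exact (hα _ hfgF).1
  have hgen : PIndep p (t f) (t (f + g)) := pindep_of_rel (pindep_add_right hab) (hα f hf).1 r
  obtain ⟨-, -, hneg2⟩ := gen_add h α lam hα hlam hf0 (ne_zero_of_notMem hfgF) hgen
  rw [← hneg2 c hc]
  exact (lam_add h α lam hα hlam hf0 hg0 hfg (neg_mem hc)).symm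

include h hα hlam in
/-- A5: `lam g = lam f` for generic pairs. -/
theorem lam_eq_of_generic {f g : K} (hf0 : f ≠ 0) (hg0 : g ≠ 0) (hfg : PIndep p (t f) (t g))
    {c : K} (hc : c ∈ pPow (L := K) p) : lam g c = lam f c := by
  have hf : f ∉ pPow (L := K) p := h.notMem_of_indep_left hf0 hfg
  obtain ⟨-, -, hneg⟩ := gen_add h α lam hα hlam hf0 hg0 hfg
  have := hneg (-c) (neg_mem hc)
  rw [neg_neg, lam_odd h α lam hα hlam hf hc, neg_neg] at this
  exact this

include h hα hlam in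
/-- A5: `lam f` does not depend on `f`. -/
theorem lam_eq {f f' : K} (hf : f ∉ pPow (L := K) p) (hf' : f' ∉ pPow (L := K) p)
    {c : K} (hc : c ∈ pPow (L := K) p) : lam f c = lam f' c := by
  obtain ⟨g, hg0, hfg, hfg'⟩ := h.exists_partner₂ hf hf'
  rw [← lam_eq_of_generic h α lam hα hlam (ne_zero_of_notMem hf) hg0 hfg hc,
    ← lam_eq_of_generic h α lam hα hlam (ne_zero_of_notMem hf') hg0 hfg' hc]

include h hα hlam in
/-- A5: `α (f + c) = α f + lam f c`. -/
theorem alpha_add_mem {f c : K} (hf : f ∉ pPow (L := K) p) (hc : c ∈ pPow (L := K) p) :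
    α (f + c) = α f + lam f c := by
  have hf0 : f ≠ 0 := ne_zero_of_notMem hf
  have hfc : f + c ∉ pPow (L := K) p := fun h' => hf (by simpa using sub_mem h' hc)
  have hfc0 : f + c ≠ 0 := ne_zero_of_notMem hfc
  have ha := alpha_notMem h α hα hf
  obtain ⟨g, hg0, hfg⟩ := h.exists_partner hf
  have hg : g ∉ pPow (L := K) p := h.notMem_of_indep_right hg0 hfg
  have hab : PIndep p (α f) (α g) := alpha_indep h α hα hf0 hg0 hfg
  have hc1 : c + 1 ∈ pPow (L := K) p := add_mem hc (one_mem _)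
  have hz := hα (f + c) hfc
  obtain ⟨e, he, he0, hze⟩ := hz.1.symm.trans (hlam f hf c hc).2
  have hz2 : PRel p (α (f + c) + 1) (α f + lam f (c + 1)) := by
    have := (hlam f hf (c + 1) hc1).2
    rw [← add_assoc] at this
    exact hz.2.symm.trans this
  obtain ⟨e', he', he'0, hze'⟩ := hz2
  have hcmp := cmp2 ha (add_mem (mul_mem he (hlam f hf c hc).1) (one_mem _)) he
    (mul_mem he' (hlam f hf (c + 1) hc1).1) he' (by rw [hze] at hze'; linear_combination hze')
  have h1 : e * (lam f (c + 1) - lam f c) = 1 := by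
    have := hcmp.1
    rw [← hcmp.2] at this
    linear_combination (-1 : L) * this
  -- the same computation for `f + g`
  obtain ⟨hfgF, hadd, -⟩ := gen_add h α lam hα hlam hf0 hg0 hfg
  have hfgc : PIndep p (t (f + c)) (t g) := by
    refine ⟨h.t_notMem hfc, fun h' => hfg.2 ?_⟩
    refine pAdj_le_of_mem ?_ h'
    refine (hlam f hf c hc).2.mem_of_mem (pPow_le_pAdj p _)
      (add_mem ?_ (pPow_le_pAdj p _ (hlam f hf c hc).1))
    exact (hα f hf).1.symm.mem_of_mem (pPow_le_pAdj p _) (self_mem_pAdj p _)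
  obtain ⟨-, hadd2, -⟩ := gen_add h α lam hα hlam hfc0 hg0 hfgc
  have hfgcF : f + g + c ∉ pPow (L := K) p := fun h' => hfgF (by simpa using sub_mem h' hc)
  have hz' := hα (f + g + c) hfgcF
  have hl1 := (hlam (f + g) hfgF c hc).2
  have hl2 := (hlam (f + g) hfgF (c + 1) hc1).2
  rw [lam_add h α lam hα hlam hf0 hg0 hfg hc, hadd] at hl1
  rw [lam_add h α lam hα hlam hf0 hg0 hfg hc1, hadd, ← add_assoc] at hl2
  obtain ⟨e₂, he₂, he₂0, hz₂⟩ := hz'.1.symm.trans hl1
  obtain ⟨e₂', he₂', he₂'0, hz₂'⟩ := hz'.2.symm.trans hl2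
  have hab_notMem : α f + α g ∉ pPow (L := L) p := by
    have := pindep_add_notMem hab (one_mem _) (one_mem _) one_ne_zero
    simpa using this
  have hcmp2 := cmp2 hab_notMem (add_mem (mul_mem he₂ (hlam f hf c hc).1) (one_mem _)) he₂
    (mul_mem he₂' (hlam f hf (c + 1) hc1).1) he₂' (by rw [hz₂] at hz₂'; linear_combination hz₂')
  have h2 : e₂ * (lam f (c + 1) - lam f c) = 1 := by
    have := hcmp2.1
    rw [← hcmp2.2] at this
    linear_combination (-1 : L) * this
  have hd : lam f (c + 1) - lam f c ≠ 0 := fun h0 => by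
    rw [h0, mul_zero] at h1; exact zero_ne_one h1
  have hee₂ : e = e₂ := mul_right_cancel₀ hd (h1.trans h2.symm)
  have hswap : f + c + g = f + g + c := by ring
  rw [hswap, hz₂, hze, ← hee₂] at hadd2
  have hb0 : α g ≠ 0 := fun h0 => alpha_notMem h α hα hg (h0 ▸ zero_mem _)
  have he1 : e = 1 := by
    have : (e - 1) * α g = 0 := by linear_combination hadd2
    rcases mul_eq_zero.1 this with h' | h'
    · exact sub_eq_zero.1 h'
    · exact absurd h' hb0
  rw [hze, he1, one_mul]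

include h hα hlam in
/-- A6: additivity outside `K^p` (generic or not). -/
theorem add_outside (τ : K → L)
    (hαc : ∀ f : K, f ∉ pPow (L := K) p → ∀ c : K, c ∈ pPow (L := K) p → α (f + c) = α f + τ c)
    {u v : K} (hu : u ∉ pPow (L := K) p) (hv : v ∉ pPow (L := K) p) :
    (u + v ∉ pPow (L := K) p → α (u + v) = α u + α v) ∧
      (u + v ∈ pPow (L := K) p → τ (u + v) = α u + α v) := by
  have hu0 : u ≠ 0 := ne_zero_of_notMem hu
  have hv0 : v ≠ 0 := ne_zero_of_notMem hv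
  by_cases hgen : PIndep p (t u) (t v)
  · obtain ⟨hF, hadd, -⟩ := gen_add h α lam hα hlam hu0 hv0 hgen
    exact ⟨fun _ => hadd, fun h' => absurd h' hF⟩
  · have htv : t v ∈ pAdj p (t u) := by
      by_contra h'
      exact hgen ⟨h.t_notMem hu, h'⟩
    obtain ⟨w, hw0, huw⟩ := h.exists_partner hu
    have hw : w ∉ pPow (L := K) p := h.notMem_of_indep_right hw0 huw
    have hvw : PIndep p (t v) (t w) :=
      ⟨h.t_notMem hv, fun h' => huw.2 (pAdj_le_of_mem htv h')⟩
    obtain ⟨hvwF, hvwadd, -⟩ := gen_add h α lam hα hlam hv0 hw0 hvw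
    have hαv_mem : α v ∈ pAdj p (t u) :=
      (hα v hv).1.symm.mem_of_mem (pPow_le_pAdj p _) htv
    have hαw_notMem : α w ∉ pAdj p (t u) :=
      fun h' => huw.2 ((hα w hw).1.mem_of_mem (pPow_le_pAdj p _) h')
    have hu_vw : PIndep p (t u) (t (v + w)) := by
      refine ⟨h.t_notMem hu, fun h' => hαw_notMem ?_⟩
      have : α (v + w) ∈ pAdj p (t u) :=
        (hα (v + w) hvwF).1.symm.mem_of_mem (pPow_le_pAdj p _) h'
      rw [hvwadd] at this
      simpa using sub_mem this hαv_mem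
    obtain ⟨-, hadd3, -⟩ := gen_add h α lam hα hlam hu0 (ne_zero_of_notMem hvwF) hu_vw
    rw [hvwadd] at hadd3
    constructor
    · intro huv
      have huv0 : u + v ≠ 0 := ne_zero_of_notMem huv
      have hmem : t (u + v) ∈ pAdj p (t u) := by
        by_cases hq : v / u ∈ pPow (L := K) p
        · have e : u + v = (1 + v / u) * u := by field_simp
          have hc : 1 + v / u ∈ pPow (L := K) p := add_mem (one_mem _) hq
          have hc0 : 1 + v / u ≠ 0 := fun h0 => huv0 (by rw [e, h0, zero_mul])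
          have := h.t_mul_mem hc hc0 hu0
          rw [← e] at this
          exact this.mem_of_mem (pPow_le_pAdj p _) (self_mem_pAdj p _)
        · obtain ⟨ε, hε, hε0, hr⟩ :=
            line_sum h α hα hu0 hv0 hq (PRel.refl (t u)) (PRel.refl (t v))
          exact hr.mem_of_mem (pPow_le_pAdj p _)
            (add_mem (self_mem_pAdj p _) (mul_mem (pPow_le_pAdj p _ hε) htv))
      have huv_w : PIndep p (t (u + v)) (t w) :=
        ⟨h.t_notMem huv, fun h' => huw.2 (pAdj_le_of_mem hmem h')⟩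
      obtain ⟨-, hadd4, -⟩ := gen_add h α lam hα hlam huv0 hw0 huv_w
      have e : u + (v + w) = u + v + w := by ring
      rw [e, hadd4] at hadd3
      linear_combination hadd3
    · intro huv
      have := hαc w hw (u + v) huv
      have e : u + (v + w) = w + (u + v) := by ring
      rw [e, this] at hadd3
      linear_combination hadd3

end Core

/-- **Block AS3 (A2–A6).** From the normalised line data: an additive `α : K → L` with
`α 1 = 1` and `t u ~ α u` for all `u ≠ 0`. -/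
theorem exists_additive (h : NLine p t) :
    ∃ α : K → L, (∀ u v, α (u + v) = α u + α v) ∧ α 1 = 1 ∧
      ∀ u, u ≠ 0 → PRel p (t u) (α u) := by
  classical
  obtain ⟨α, lam, hα, hlam⟩ := h.exists_alpha_lam
  obtain ⟨x₀, y₀, hxy⟩ := h.pair
  obtain ⟨f₀, hf₀0, hf₀r⟩ := h.surj x₀ (ne_zero_of_notMem hxy.1)
  have hf₀ : f₀ ∉ FK :=
    h.notMem_of_t_notMem hf₀0 (fun hm => hxy.1 (hf₀r.symm.mem_pPow hm))
  have hτeq : ∀ f, f ∉ FK → ∀ c ∈ FK, lam f c = lam f₀ c :=
    fun f hf c hc => lam_eq h α lam hα hlam hf hf₀ hc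
  have hτmem : ∀ c ∈ FK, lam f₀ c ∈ FL := fun c hc => (hlam f₀ hf₀ c hc).1
  have hτ1 : lam f₀ 1 = 1 := lam_one h α lam hα hlam hf₀
  have hαc : ∀ f : K, f ∉ FK → ∀ c : K, c ∈ FK → α (f + c) = α f + lam f₀ c :=
    fun f hf c hc => by rw [alpha_add_mem h α lam hα hlam hf hc, hτeq f hf c hc]
  have hτadd : ∀ c ∈ FK, ∀ c' ∈ FK, lam f₀ (c + c') = lam f₀ c + lam f₀ c' := by
    intro c hc c' hc'
    have h1 := hαc f₀ hf₀ (c + c') (add_mem hc hc')
    have h3 := hαc f₀ hf₀ c hc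
    have h2 := hαc (f₀ + c) (fun h' => hf₀ (by simpa using sub_mem h' hc)) c' hc'
    have e : f₀ + (c + c') = f₀ + c + c' := by ring
    rw [e] at h1
    linear_combination h2 + h3 - h1
  have hτne : ∀ u ∈ FK, u ≠ 0 → lam f₀ u ≠ 0 := by
    intro u hu hu0 h0
    have hr := (hlam f₀ hf₀ u hu).2
    rw [h0, add_zero] at hr
    have hfu0 : f₀ + u ≠ 0 :=
      ne_zero_of_notMem (p := p) (fun h' => hf₀ (by simpa using sub_mem h' hu))
    have hd := h.div_mem_of_rel hfu0 hf₀0 (hr.trans (hα f₀ hf₀).1.symm)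
    apply hf₀
    have e1 : (f₀ + u) / f₀ - 1 = u / f₀ := by field_simp; ring
    have e2 : f₀ = u / (u / f₀) := by field_simp
    rw [e2, ← e1]
    exact div_mem hu (sub_mem hd (one_mem _))
  refine ⟨fun u => if u ∈ FK then lam f₀ u else α u, ?_, ?_, ?_⟩
  · intro u v
    by_cases hu : u ∈ FK <;> by_cases hv : v ∈ FK
    · simp only [if_pos hu, if_pos hv, if_pos (add_mem hu hv)]
      exact hτadd u hu v hv
    · have huv : u + v ∉ FK := fun h' => hv (by simpa using sub_mem h' hu)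
      simp only [if_pos hu, if_neg hv, if_neg huv]
      rw [add_comm u v, hαc v hv u hu, add_comm]
    · have huv : u + v ∉ FK := fun h' => hu (by simpa using sub_mem h' hv)
      simp only [if_neg hu, if_pos hv, if_neg huv]
      exact hαc u hu v hv
    · have key := add_outside h α lam hα hlam (lam f₀) hαc hu hv
      by_cases huv : u + v ∈ FK
      · simp only [if_neg hu, if_neg hv, if_pos huv]
        exact key.2 huv
      · simp only [if_neg hu, if_neg hv, if_neg huv]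
        exact key.1 huv
  · simp only [if_pos (one_mem FK)]
    exact hτ1
  · intro u hu0
    by_cases hu : u ∈ FK
    · simp only [if_pos hu]
      have hτu := hτne u hu hu0
      exact ⟨t u / lam f₀ u, div_mem ((h.pow_iff u hu0).2 hu) (hτmem u hu),
        div_ne_zero (h.ne_zero u hu0) hτu, by field_simp⟩
    · simp only [if_neg hu]
      exact (hα u hu).1

end NLine

end Crest.Agent.Helper69.S0010
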